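import Vale.Agent.P161.Final

set_option autoImplicit false

noncomputable section
open scoped Classical
open MeasureTheory

namespace Vale.Agent.Results.P161.FreeIsingFIID

variable {V : Type*}

/-- The edges of `G` with both endpoints in the finite vertex set `D`. -/
def edgesInside (G : SimpleGraph V) (D : Finset V) : Finset (Sym2 V) :=
  D.sym2.filter (fun e => e ∈ G.edgeSet)

/-- The factor `(1 + θ * η a * η b) / 2` of the edge `{a, b}` in the spin configuration `η`. -/
def edgeFactor (θ : ℝ) (η : V → ℝ) : Sym2 V → ℝ :=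
  Sym2.lift ⟨fun a b => (1 + θ * η a * η b) / 2, fun a b => by ring⟩

/-- On the `d`-regular tree, `d ≥ 3`, with `θ = tanh β ≥ 0` and `θ² (d - 1) < 1`, the free Ising
measure is a factor of i.i.d. uniform variables on `[0,1]`: there is a measurable map `Φ` into
`{-1, 1}`-valued configurations such that `Φ(U)` has the cylinder probabilities
`(1/2) ∏_{edges of D} (1 + θ η_a η_b) / 2` on every finite connected `D`, and such that
`Φ(g U) = g Φ(U)` almost surely for every automorphism `g`, where `(g x)_v = x_{g⁻¹ v}`. -/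
theorem result (G : SimpleGraph V) [G.LocallyFinite] (d : ℕ) (hd : 3 ≤ d) (hT : G.IsTree)
    (hreg : G.IsRegularOfDegree d) (β : ℝ) (hβ : 0 ≤ β)
    (hθ : Real.tanh β ^ 2 * ((d : ℝ) - 1) < 1) :
    ∃ Φ : (V → ℝ) → V → ℝ,
      Measurable Φ ∧ (∀ U v, Φ U v = 1 ∨ Φ U v = -1) ∧
      (∀ D : Finset V, (G.induce (D : Set V)).Connected →
        ∀ η : V → ℝ, (∀ v, η v = 1 ∨ η v = -1) →
          Measure.infinitePi (fun _ : V => volume.restrict (Set.Icc (0 : ℝ) 1))
              {U | ∀ v ∈ D, Φ U v = η v}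
            = ENNReal.ofReal (1 / 2 * ∏ e ∈ edgesInside G D, edgeFactor (Real.tanh β) η e)) ∧
      ∀ g : G ≃g G,
        ∀ᵐ U ∂(Measure.infinitePi (fun _ : V => volume.restrict (Set.Icc (0 : ℝ) 1))),
          Φ (U ∘ g.symm) = (Φ U) ∘ g.symm := by
  have hθ0 : 0 ≤ Real.tanh β := by
    rw [Real.tanh_eq_sinh_div_cosh]
    exact div_nonneg (Real.sinh_nonneg_iff.mpr hβ) (Real.cosh_pos β).le
  obtain ⟨Φ, h1, h2, h3, h4⟩ := Vale.Agent.P161.main_fiid (G := G) hT hreg (by omega) hθ0 hθ
  refine ⟨Φ, h1, h2, ?_, h4⟩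
  intro D hD η hη
  have hconv := Vale.Agent.P161.isConvexSet_of_connected hT hD.preconnected
  have hne : D.Nonempty := by
    obtain ⟨x⟩ := hD.nonempty
    exact ⟨x.1, x.2⟩
  have := h3 D hconv hne η hη
  have e : ∏ e ∈ edgesInside G D, edgeFactor (Real.tanh β) η e
      = ∏ e ∈ Vale.Agent.P161.edgesIn G D, Vale.Agent.P161.edgeWt (Real.tanh β) η e := rfl
  rw [e]
  exact this

end Vale.Agent.Results.P161.FreeIsingFIID
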